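import Vale.Agent.P273.H680.CoreBd
import Vale.Agent.P273.H951.CoreForm
import Vale.Agent.P273.H630.D0

/-!
# P273, crew ASY0 (T3): from the pointwise form on the cores to `AsyQ`

* `asyQ_of_coreForm`: all fields of helper803's `AsyQ Q κ lg` from helper951's `CoreForm Q D lg`;
* `kap0_D0`: the constants of the theta point;
* `asyQ_core0`: the two together.
-/

noncomputable section

namespace Vale.Agent.P273.H680

open H95 H562 H803 H132

variable {Q : MarkP} {D : H722.KapData (Fin 3)} {lg : LegF} {κ : Fin 3 → Fin 3 → ℝ}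

/-- **the cores**: the pointwise form gives all the fields -/
theorem asyQ_of_coreForm (hQ : ∀ R S j, Q R S j → ∃ b, R.pl j = Sum.inr b)
    (hκ : H233.LimC.Kap0 D κ) (h : H951.CoreForm Q D lg) : AsyQ Q κ lg :=
  have hc : CForm D Q lg := cform_of hQ h
  ⟨hc.b1, hc.b2, hc.b4, hc.b5, hc.b6, H951.limN_core hQ, h.limC hκ, h.lim0 hQ⟩

/-- the constants of the theta point -/
theorem kap0_D0 : H233.LimC.Kap0 H630.D0 H630.kap0 := fun β k => H630.sum_kap0 β k

/-- the cores at the theta point -/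
theorem asyQ_core0 (hQ : ∀ R S j, Q R S j → ∃ b, R.pl j = Sum.inr b)
    (h : H951.CoreForm Q H630.D0 lg) : AsyQ Q H630.kap0 lg :=
  asyQ_of_coreForm hQ kap0_D0 h

theorem near0_of_coreForm (h : H951.CoreForm Near0 H630.D0 lg) : AsyQ Near0 H630.kap0 lg :=
  asyQ_core0 (fun _ _ _ h => h.2) h

theorem far0_of_coreForm (h : H951.CoreForm Far0 H630.D0 lg) : AsyQ Far0 H630.kap0 lg :=
  asyQ_core0 (fun _ _ _ h => h.2) h

end Vale.Agent.P273.H680

end
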